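import Vale.Agent.Lib.P335.H8.PairRel
import Vale.Agent.Lib.P335.Gr.Flip

/-!
# Rigidity of the cross slots on non-alternating graphs with an even number of cross edges

Let `b`, `b2` be disjoint vertex pairs. If every vertex of `b2` is joined to all or to none of the
vertices of `b` (the columns of the cross matrix are constant), then every graph with the same
degrees that agrees with `G` off `b` has the same cross slots as `G`. When the number of cross
edges is even and the four-cycle between `b` and `b2` is not alternating, either the columns or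
the rows of the cross matrix are constant.
-/

namespace Vale.Agent.Lib.P335.H26

open Finset
open Classical
open Vale.Agent.Lib.P335
open Vale.Agent.Lib.P335.Gr
open Vale.Agent.Lib.P335.H8

variable {n : ℕ} {d : Fin n → ℕ}

/-- Two realizations that agree off `b` give every vertex outside `b` the same number of
neighbours inside `b`. -/
theorem card_nbrs_in_eq {b : Finset (Fin n)} {E E2 : Finset (Sym2 (Fin n))}
    (hE : IsRealization d E) (hE2 : IsRealization d E2) (h : GAgree b E E2)
    {z : Fin n} (hz : z ∉ b) :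
    ((nbrs E z).filter (fun a => a ∈ b)).card = ((nbrs E2 z).filter (fun a => a ∈ b)).card := by
  have h1 := Finset.card_filter_add_card_filter_not (s := nbrs E z) (fun a => a ∈ b)
  have h2 := Finset.card_filter_add_card_filter_not (s := nbrs E2 z) (fun a => a ∈ b)
  have h3 : (nbrs E z).filter (fun a => ¬ a ∈ b) = (nbrs E2 z).filter (fun a => ¬ a ∈ b) := by
    ext a
    simp only [nbrs, mem_filter, mem_univ, true_and]
    constructor
    · rintro ⟨ha, hab⟩
      exact ⟨(h z a hz hab).mp ha, hab⟩
    · rintro ⟨ha, hab⟩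
      exact ⟨(h z a hz hab).mpr ha, hab⟩
  rw [hE.2 z] at h1
  rw [hE2.2 z, ← h3] at h2
  omega

/-- If the vertex `z` outside `b` is joined to all or to none of the vertices of `b`, the same
slots are occupied in every realization that agrees off `b`. -/
theorem column_rigid {b : Finset (Fin n)} {E E2 : Finset (Sym2 (Fin n))}
    (hE : IsRealization d E) (hE2 : IsRealization d E2) (h : GAgree b E E2)
    {z : Fin n} (hz : z ∉ b)
    (hcol : ∀ v ∈ b, ∀ v2 ∈ b, (s(v, z) ∈ E ↔ s(v2, z) ∈ E))
    {v : Fin n} (hv : v ∈ b) : s(v, z) ∈ E ↔ s(v, z) ∈ E2 := by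
  have hcard := card_nbrs_in_eq hE hE2 h hz
  have hsub2 : (nbrs E2 z).filter (fun a => a ∈ b) ⊆ b := by
    intro a ha
    exact (mem_filter.mp ha).2
  have hmem : ∀ (F : Finset (Sym2 (Fin n))) (a : Fin n),
      a ∈ (nbrs F z).filter (fun a => a ∈ b) ↔ (s(a, z) ∈ F ∧ a ∈ b) := by
    intro F a
    simp only [nbrs, mem_filter, mem_univ, true_and]
    rw [Sym2.eq_swap]
  by_cases hvz : s(v, z) ∈ E
  · have hall : (nbrs E z).filter (fun a => a ∈ b) = b := by
      ext a
      rw [hmem]
      constructor
      · exact fun ha => ha.2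
      · exact fun ha => ⟨(hcol v hv a ha).mp hvz, ha⟩
    rw [hall] at hcard
    have hall2 : (nbrs E2 z).filter (fun a => a ∈ b) = b :=
      Finset.eq_of_subset_of_card_le hsub2 (le_of_eq hcard)
    have hv2 : v ∈ (nbrs E2 z).filter (fun a => a ∈ b) := by
      rw [hall2]
      exact hv
    exact ⟨fun _ => ((hmem E2 v).mp hv2).1, fun _ => hvz⟩
  · have hnone : (nbrs E z).filter (fun a => a ∈ b) = ∅ := by
      ext a
      rw [hmem]
      constructor
      · rintro ⟨ha, hab⟩
        exact absurd ((hcol a hab v hv).mp ha) hvz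
      · intro ha
        exact absurd ha (Finset.notMem_empty a)
    rw [hnone, Finset.card_empty] at hcard
    have hnone2 : (nbrs E2 z).filter (fun a => a ∈ b) = ∅ :=
      Finset.card_eq_zero.mp hcard.symm
    have hv2 : s(v, z) ∉ E2 := by
      intro hh
      have : v ∈ (nbrs E2 z).filter (fun a => a ∈ b) := (hmem E2 v).mpr ⟨hh, hv⟩
      rw [hnone2] at this
      exact absurd this (Finset.notMem_empty v)
    exact ⟨fun hh => absurd hh hvz, fun hh => absurd hh hv2⟩

/-- **Column rigidity.** If every vertex of `b2` is joined in `G` to all or to none of the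
vertices of `b`, then every graph that agrees with `G` off `b` agrees with `G` outside the own
slots of `b`, that is, it has the same slots between `b` and `b2`. -/
theorem col_rigid {b b2 : Finset (Fin n)} (hd : Disjoint b b2) (G G2 : Omega d)
    (hcol : ∀ z ∈ b2, ∀ v ∈ b, ∀ v2 ∈ b, (s(v, z) ∈ G.1 ↔ s(v2, z) ∈ G.1))
    (h : GAgree b G.1 G2.1) : AgreeS (ownS b b2) G G2 := by
  have hdl := Finset.disjoint_left.mp hd
  intro e
  induction e using Sym2.ind with
  | _ a c =>
    intro he
    simp only [ownS, mem_sdiff, mem_slotsAt, not_and, not_not] at he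
    by_cases ha : a ∈ b
    · by_cases hc : c ∈ b
      · rcases he (Or.inl ha) with h2 | h2
        · exact absurd h2 (hdl ha)
        · exact absurd h2 (hdl hc)
      · rcases he (Or.inl ha) with h2 | h2
        · exact absurd h2 (hdl ha)
        · exact column_rigid G.2 G2.2 h hc (hcol c h2) ha
    · by_cases hc : c ∈ b
      · rcases he (Or.inr hc) with h2 | h2
        · have := column_rigid G.2 G2.2 h ha (hcol a h2) hc
          rw [Sym2.eq_swap]
          exact this
        · exact absurd h2 (hdl hc)
      · exact h a c ha hc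

/-- The number of cross edges as a sum of four indicators. -/
theorem card_inter_cross {u w x y : Fin n} (huw : u ≠ w) (hxy : x ≠ y) (hux : u ≠ x)
    (huy : u ≠ y) (_hwx : w ≠ x) (hwy : w ≠ y) (E : Finset (Sym2 (Fin n))) :
    (E ∩ cross {u, w} {x, y}).card
      = (if s(u, x) ∈ E then 1 else 0) + (if s(u, y) ∈ E then 1 else 0)
        + (if s(w, x) ∈ E then 1 else 0) + (if s(w, y) ∈ E then 1 else 0) := by
  rw [cross_pair, Finset.inter_comm, ← Finset.filter_mem_eq_inter, Finset.card_filter]
  rw [Finset.sum_insert, Finset.sum_insert, Finset.sum_insert, Finset.sum_singleton]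
  · ring
  · simp [hxy, hwy]
  · simp [huw, huy, hux]
  · simp [huw, hux, huy, hxy]

/-- With an even number of cross edges and no alternating four-cycle, the columns or the rows
of the cross matrix are constant. -/
theorem even_nonalt_cases {b b2 : Finset (Fin n)} (hb : b.card = 2) (hb2 : b2.card = 2)
    (hd : Disjoint b b2) (E : Finset (Sym2 (Fin n)))
    (hev : Even (E ∩ cross b b2).card) (hna : ¬ IsAlt b b2 E) :
    (∀ z ∈ b2, ∀ v ∈ b, ∀ v2 ∈ b, (s(v, z) ∈ E ↔ s(v2, z) ∈ E)) ∨
      (∀ v ∈ b, ∀ z ∈ b2, ∀ z2 ∈ b2, (s(v, z) ∈ E ↔ s(v, z2) ∈ E)) := by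
  obtain ⟨u, w, huw, rfl⟩ := card_eq_two.mp hb
  obtain ⟨x, y, hxy, rfl⟩ := card_eq_two.mp hb2
  obtain ⟨hux, huy, hwx, hwy⟩ := pair_distinct hd
  rw [card_inter_cross huw hxy hux huy hwx hwy, Nat.even_iff] at hev
  rw [isAlt_pair huw hxy] at hna
  unfold Alt4 at hna
  simp only [mem_insert, mem_singleton, forall_eq_or_imp, forall_eq]
  by_cases h1 : s(u, x) ∈ E <;> by_cases h2 : s(u, y) ∈ E <;> by_cases h3 : s(w, x) ∈ E <;>
    by_cases h4 : s(w, y) ∈ E <;> simp [h1, h2, h3, h4] at hev hna ⊢

/-- An odd number of cross edges excludes the alternating four-cycle, so the flip does nothing. -/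
theorem flip_of_odd {b b2 : Finset (Fin n)} (hb : b.card = 2) (hb2 : b2.card = 2)
    (hd : Disjoint b b2) (G : Omega d) (hodd : Odd (G.1 ∩ cross b b2).card) :
    flip b b2 G = G := by
  apply flip_of_not
  intro halt
  obtain ⟨u, w, huw, rfl⟩ := card_eq_two.mp hb
  obtain ⟨x, y, hxy, rfl⟩ := card_eq_two.mp hb2
  obtain ⟨hux, huy, hwx, hwy⟩ := pair_distinct hd
  rw [card_inter_cross huw hxy hux huy hwx hwy, Nat.odd_iff] at hodd
  rcases (isAlt_pair huw hxy G.1).mp halt with ⟨h1, h2, h3, h4⟩ | ⟨h1, h2, h3, h4⟩ <;>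
    simp [h1, h2, h3, h4] at hodd

/-- **The even non-alternating case.** If `G` has an even number of cross edges and is fixed by
the flip, then the whole class of `G` off `b` lies in its class of the own slots of `b`, or the
same holds for `b2`. -/
theorem hE_graph {b b2 : Finset (Fin n)} (hb : b.card = 2) (hb2 : b2.card = 2)
    (hd : Disjoint b b2) (G : Omega d) (hev : ¬ Odd (G.1 ∩ cross b b2).card)
    (hF : flip b b2 G = G) :
    (∀ G2 : Omega d, GAgree b G.1 G2.1 → AgreeS (ownS b b2) G G2) ∨
      (∀ G2 : Omega d, GAgree b2 G.1 G2.1 → AgreeS (ownS b2 b) G G2) := by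
  have hna : ¬ IsAlt b b2 G.1 := fun h => flip_ne_self hb hb2 hd h hF
  rcases even_nonalt_cases hb hb2 hd G.1 (Nat.not_odd_iff_even.mp hev) hna with hc | hr
  · left
    intro G2 h
    exact col_rigid hd G G2 hc h
  · right
    intro G2 h
    refine col_rigid hd.symm G G2 ?_ h
    intro z hz v hv v2 hv2
    have := hr z hz v hv v2 hv2
    rw [Sym2.eq_swap, this, Sym2.eq_swap]

end Vale.Agent.Lib.P335.H26
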