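import Vale.Agent.Lib.P335.H5.TwoOrbit
import Vale.Agent.Lib.P335.H8.FlipRel
import Vale.Agent.Lib.P335.H17.Slots
import Vale.Agent.Lib.P335.H26.EvenRigid

/-!
# The pair inequality for two disjoint vertex pairs in the graph model

For disjoint vertex pairs `b`, `c` the abstract two-orbit inequality is applied to the classes
of `b` and of `c`, the classes of their own slots, the flip of the four-cycle between them, the
graphs with an odd number of cross edges and the alternating graphs.
-/

namespace Vale.Agent.Lib.P335.H26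

open Finset
open Classical
open Vale.Agent.Lib.P335
open Vale.Agent.Lib.P335.Gr
open Vale.Agent.Lib.P335.H8
open Vale.Agent.Lib.P335.Bip (ip)

variable {n : ℕ} {d : Fin n → ℕ}

/-- The number of cross edges in the form of four indicators. -/
theorem card_inter_cross_eq_slotCount {u w x y : Fin n} (huw : u ≠ w) (hxy : x ≠ y)
    (hux : u ≠ x) (huy : u ≠ y) (hwx : w ≠ x) (hwy : w ≠ y) (E : Finset (Sym2 (Fin n))) :
    (E ∩ cross {u, w} {x, y}).card = H17.slotCount E u w x y := by
  rw [card_inter_cross huw hxy hux huy hwx hwy]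
  unfold H17.slotCount H17.ind
  rfl

/-- **Rectangle completion.** With an odd number of cross edges, a path `G ~ G2 ~ G3` through
the class of `b` and then the class of `c` can be completed through the class of `c` and then
the class of `b`. -/
theorem hrect_graph {b c : Finset (Fin n)} (hb : b.card = 2) (hc : c.card = 2)
    (hd : Disjoint b c) (G G2 G3 : Omega d) (hodd : Odd (G.1 ∩ cross b c).card)
    (h1 : GAgree b G.1 G2.1) (h2 : GAgree c G2.1 G3.1) :
    ∃ H : Omega d, GAgree c G.1 H.1 ∧ GAgree b H.1 G3.1 := by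
  obtain ⟨u, w, huw, rfl⟩ := card_eq_two.mp hb
  obtain ⟨x, y, hxy, rfl⟩ := card_eq_two.mp hc
  obtain ⟨hux, huy, hwx, hwy⟩ := pair_distinct hd
  have h1' : H17.SAgree (H17.pairsAt {u, w}) G.1 G2.1 := H17.sAgree_pairsAt_iff.mpr h1
  have h2' : H17.SAgree (H17.pairsAt {x, y}) G2.1 G3.1 := H17.sAgree_pairsAt_iff.mpr h2
  have hodd' : Odd (H17.slotCount G.1 u w x y) := by
    rw [← card_inter_cross_eq_slotCount huw hxy hux huy hwx hwy]
    exact hodd
  refine ⟨⟨H17.rect G.1 G3.1 u w x y,
    H17.rect_isRealization huw hxy hux huy hwx hwy G.2 G2.2 G3.2 h1' h2' hodd'⟩, ?_, ?_⟩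
  · exact H17.sAgree_pairsAt_iff.mp (H17.rect_sAgree_right G.1 G3.1 u w x y)
  · exact H17.sAgree_pairsAt_iff.mp (H17.rect_sAgree_left h1' h2')

/-- With an odd number of cross edges, two graphs in the same class of `b` and the same class
of `c` are equal. -/
theorem hZuniq_graph {b c : Finset (Fin n)} (hb : b.card = 2) (hc : c.card = 2)
    (hd : Disjoint b c) (G G2 : Omega d) (hodd : Odd (G.1 ∩ cross b c).card)
    (h1 : GAgree b G.1 G2.1) (h2 : GAgree c G.1 G2.1) : G = G2 := by
  rcases eq_or_eq_flip_of_gagree hb hc hd h1 h2 with h | h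
  · exact h.symm
  · rw [h, flip_of_odd hb hc hd G hodd]

/-- Changing the predicate of `kapR` to an equivalent one. -/
theorem kapR_congr {Om : Type} [Fintype Om] (r : Om → Om → Prop) (N N' : Om → Prop)
    (h : ∀ x, N x ↔ N' x) (g : Om → ℝ) : H5.kapR r N g = H5.kapR r N' g := by
  have hN : N = N' := funext fun x => propext (h x)
  subst hN
  rfl

/-- **The pair inequality** for two disjoint vertex pairs `b`, `c`. -/
theorem graph_PI (b c : Finset (Fin n)) (hb : b.card = 2) (hc : c.card = 2)
    (hd : Disjoint b c) (f : Omega d → ℝ) :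
    (1 / 2) * fenergy b c f - kap b c (f - gavg b f) - kap c b (f - gavg c f)
      ≤ 2 * ip (f - gavg b f) (f - gavg c f) := by
  have hrb : Equivalence (fun G G2 : Omega d => GAgree b G.1 G2.1) :=
    ⟨fun G => GAgree.refl b G.1, fun h => GAgree.symm h, fun h1 h2 => GAgree.trans h1 h2⟩
  have hrc : Equivalence (fun G G2 : Omega d => GAgree c G.1 G2.1) :=
    ⟨fun G => GAgree.refl c G.1, fun h => GAgree.symm h, fun h1 h2 => GAgree.trans h1 h2⟩
  have key := H5.two_orbit (fun G G2 : Omega d => GAgree b G.1 G2.1)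
    (fun G G2 : Omega d => GAgree c G.1 G2.1) (AgreeS (d := d) (ownS b c))
    (AgreeS (d := d) (ownS c b)) (flip b c)
    (fun G : Omega d => Odd (G.1 ∩ cross b c).card) (fun G : Omega d => IsAlt b c G.1)
    hrb hrc (agreeS_equiv (ownS b c)) (agreeS_equiv (ownS c b))
    (fun G => (flip_ne_self_iff hb hc hd G).symm)
    (flip_flip b c) (gagree_flip_left b c) (gagree_flip_right b c)
    (fun _ _ h => agreeS_ownS_flip b c h) (fun _ _ h => agreeS_ownS_flip' b c h)
    (fun G G2 h hG => flip_of_not (fun hA =>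
      flip_ne_self hb hc hd ((isAlt_iff_of_agreeS_ownS hd h).mpr hA) hG))
    (fun G G2 h hG => flip_of_not (fun hA =>
      flip_ne_self hb hc hd ((isAlt_iff_of_agreeS_ownS' hd h).mpr hA) hG))
    (fun G G2 h => (gagree_iff_agreeS b G G2).2 (agreeS_mono (ownS_subset b c) h))
    (fun G G2 h => (gagree_iff_agreeS c G G2).2 (agreeS_mono (ownS_subset c b) h))
    (fun g => ownS_comm b c g) (fun g => gavg_ownS_comm b c g) (fun g => gavg_ownS_comm c b g)
    (fun G G2 h => by
      show Odd (G.1 ∩ cross b c).card ↔ Odd (G2.1 ∩ cross b c).card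
      rw [card_cross_eq hd h])
    (fun G G2 h => by
      show Odd (G.1 ∩ cross b c).card ↔ Odd (G2.1 ∩ cross b c).card
      rw [card_cross_eq' hd h])
    (fun G hG => flip_of_odd hb hc hd G hG)
    (fun G G2 G3 hG h1 h2 => hrect_graph hb hc hd G G2 G3 hG h1 h2)
    (fun G G2 hG h1 h2 => hZuniq_graph hb hc hd G G2 hG h1 h2)
    (fun G hG hF => hE_graph hb hc hd G hG hF)
    (fun G G2 hG hG2 h => agreeS_ownS_of_isAlt hb hc hd ((flip_ne_self_iff hb hc hd G).mp hG)
      ((flip_ne_self_iff hb hc hd G2).mp hG2) h)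
    (fun G G2 hG hG2 h => agreeS_ownS_of_isAlt' hb hc hd ((flip_ne_self_iff hb hc hd G).mp hG)
      ((flip_ne_self_iff hb hc hd G2).mp hG2) h)
    f
  rw [kapR_congr (fun G G2 : Omega d => GAgree c G.1 G2.1) (fun G : Omega d => IsAlt b c G.1)
    (fun G : Omega d => IsAlt c b G.1) (fun G => isAlt_comm b c G.1)] at key
  exact key

end Vale.Agent.Lib.P335.H26
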